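import Vale.Agent.P309.Transport

open Vale.Agent.P309.Model

/-- Memory-sample trade-off for noiseless Gaussian linear regression, learners with fresh
independent coins.
(1) The question: for every constant `A`, learners with `M ≤ A d²` bits that succeed at accuracy
`ε` need `T ≥ c d log (1/ε)` samples, for all large `d` and all small `ε`.
(2) Explicit trade-off for every `M`.
(3) `d log₂ (C d / ε)` bits and `C d log (1/ε)` samples suffice.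
(4) With less than `(d-1) log₂ (1/(2ε)) - 1` bits no learner succeeds, whatever the horizon.
(5) For `ε ≤ d^(-κ)`: the least horizon is `⊤` for `M ≤ c d log (1/ε)`, and of exact order
`d log (1/ε)` for `C d log (1/ε) ≤ M ≤ A d²`. -/
theorem Vale.Agent.Results.P309.LeastHorizon.result :
    (∀ A : ℝ, 0 < A → ∃ c : ℝ, 0 < c ∧ ∃ ε₀ : ℝ, 0 < ε₀ ∧ ∃ d₀ : ℕ, ∀ d : ℕ, d₀ ≤ d →
      ∀ ε : ℝ, 0 < ε → ε ≤ ε₀ → ∀ M T : ℕ, (M : ℝ) ≤ A * d ^ 2 →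
        Solvable d M T ε → c * d * Real.log (1 / ε) ≤ T) ∧
    (∀ d : ℕ, 32 ≤ d → ∀ ε : ℝ, 0 < ε → ε ≤ 1 → ∀ M T : ℕ, Solvable d M T ε →
      (d : ℝ) * (Real.log (1 / ε) - 13 * (1 + 160 * M / d ^ 2)) ≤
        384 * (1 + 160 * M / d ^ 2) * T) ∧
    (∃ C : ℝ, 0 < C ∧ ∀ d : ℕ, 2 ≤ d → ∀ ε : ℝ, 0 < ε → ε ≤ 1 / 2 → ∀ M T : ℕ,
      (d : ℝ) * Real.logb 2 (C * d / ε) ≤ M → C * d * Real.log (1 / ε) ≤ T →
        Solvable d M T ε) ∧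
    (∀ d : ℕ, 2 ≤ d → ∀ ε : ℝ, 0 < ε → ∀ M T : ℕ, Solvable d M T ε →
      ((d : ℝ) - 1) * Real.logb 2 (1 / (2 * ε)) - 1 ≤ M) ∧
    (∀ A κ : ℝ, 0 < A → 0 < κ → ∃ c : ℝ, 0 < c ∧ ∃ C : ℝ, 0 < C ∧
      ∃ ε₀ : ℝ, 0 < ε₀ ∧ ∃ d₀ : ℕ, ∀ d : ℕ, d₀ ≤ d → ∀ ε : ℝ, 0 < ε → ε ≤ ε₀ →
        ε ≤ (d : ℝ) ^ (-κ) → ∀ M : ℕ,
          ((M : ℝ) ≤ c * d * Real.log (1 / ε) → leastHorizon d M ε = ⊤) ∧
          ((M : ℝ) ≤ A * d ^ 2 → ∀ T : ℕ, leastHorizon d M ε ≤ T →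
            c * d * Real.log (1 / ε) ≤ T) ∧
          (C * d * Real.log (1 / ε) ≤ M →
            leastHorizon d M ε ≤ (⌈C * d * Real.log (1 / ε)⌉₊ : ℕ))) :=
  ⟨fun A hA => Vale.Agent.P309.Transport.lower A hA,
    fun _ hd _ hε hε1 _ _ h => Vale.Agent.P309.Transport.explicit hd hε hε1 h,
    Vale.Agent.P309.Transport.upper,
    fun _ hd _ hε _ _ h => Vale.Agent.P309.Transport.memory hd hε h,
    fun A κ hA hκ => Vale.Agent.P309.Transport.theta A κ hA hκ⟩
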