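import Vale.Agent.P309.Final

open Vale.Agent.P309

/-- Memory-sample trade-off for noiseless Gaussian linear regression.
First part: with `M ≤ A d ^ 2` bits, for any constant `A`, at least of order `d log (1/ε)` samples
are needed.  Second part: explicit trade-off for every `M`. -/
theorem Vale.Agent.Results.P309.Main.result :
    (∀ A : ℝ, 0 < A → ∃ c : ℝ, 0 < c ∧ ∃ ε₀ : ℝ, 0 < ε₀ ∧ ∃ d₀ : ℕ, ∀ d : ℕ, d₀ ≤ d →
      ∀ ε : ℝ, 0 < ε → ε ≤ ε₀ → ∀ M T : ℕ, (M : ℝ) ≤ A * d ^ 2 →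
        ∀ L : Learner d M, L.Succeeds T ε → c * d * Real.log (1 / ε) ≤ T) ∧
    (∀ d : ℕ, 32 ≤ d → ∀ ε : ℝ, 0 < ε → ε ≤ 1 → ∀ M T : ℕ,
      ∀ L : Learner d M, L.Succeeds T ε →
        (d : ℝ) * (Real.log (1 / ε) - 13 * (1 + 160 * M / d ^ 2)) ≤
          384 * (1 + 160 * M / d ^ 2) * T) := by
  refine ⟨?_, fun d hd ε hε hε1 M T L hL => tradeoff hd hε hε1 L hL⟩
  intro A hA
  refine ⟨1 / (768 * (1 + 160 * A)), by positivity, Real.exp (-(26 * (1 + 160 * A))),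
    Real.exp_pos _, 32, ?_⟩
  intro d hd ε hε hε0 M T hM L hL
  have hε1 : ε ≤ 1 := hε0.trans (by rw [Real.exp_le_one_iff]; linarith)
  have h1 := tradeoff hd hε hε1 L hL
  have hd0 : (0 : ℝ) < d := by exact_mod_cast (show 0 < d by omega)
  have hT0 : (0 : ℝ) ≤ T := Nat.cast_nonneg T
  have hB : (1 : ℝ) + 160 * M / d ^ 2 ≤ 1 + 160 * A := by
    have : 160 * (M : ℝ) / d ^ 2 ≤ 160 * A := by
      rw [div_le_iff₀ (by positivity)]
      linarith
    linarith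
  have hlog : 26 * (1 + 160 * A) ≤ Real.log (1 / ε) := by
    rw [one_div, Real.log_inv]
    have := Real.log_le_log hε hε0
    rw [Real.log_exp] at this
    linarith
  have h2 : (d : ℝ) * (Real.log (1 / ε) - 13 * (1 + 160 * A)) ≤
      d * (Real.log (1 / ε) - 13 * (1 + 160 * M / d ^ 2)) := by
    gcongr
  have h3 : 384 * (1 + 160 * (M : ℝ) / d ^ 2) * T ≤ 384 * (1 + 160 * A) * T := by
    gcongr
  have h4 : (d : ℝ) * (Real.log (1 / ε) / 2) ≤ d * (Real.log (1 / ε) - 13 * (1 + 160 * A)) := by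
    gcongr
    linarith
  have h5 : (d : ℝ) * Real.log (1 / ε) ≤ 768 * (1 + 160 * A) * T := by linarith
  rw [div_mul_eq_mul_div, div_mul_eq_mul_div, one_mul, div_le_iff₀ (by positivity)]
  linarith
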